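import Vale.Agent.P233.H616.TwoPoint
import Vale.Agent.P233.Gig.Main

/-!
# P233: `H616.md = md` etc., scaling, and the metric part of F2
-/

open MeasureTheory Filter Topology Real Set
open scoped Interval

universe u

namespace Vale.Agent.P233.H616

theorem md_eq (κ t : ℝ) : H616.md κ t = Vale.Agent.P233.md κ t := by
  rcases lt_trichotomy κ 0 with h | h | h
  · rw [md_neg' h]
    simp only [Vale.Agent.P233.md, h.ne, if_false, h.le.not_gt]
    rw [div_eq_div_iff h.ne (neg_ne_zero.2 h.ne)]
    ring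
  · subst h; simp [md_zero', Vale.Agent.P233.md]
  · rw [md_pos' h]; simp [Vale.Agent.P233.md, h, h.ne']

theorem sn_eq (κ t : ℝ) : H616.sn κ t = Vale.Agent.P233.sn κ t := rfl

theorem cs_eq' (κ t : ℝ) : H616.cs κ t = Vale.Agent.P233.cs κ t := rfl

/-! ### scaling -/

theorem sqrt_mul_sq {κ l : ℝ} (hκ : 0 ≤ κ) (hl : 0 ≤ l) : √(κ * l ^ 2) = √κ * l := by
  rw [Real.sqrt_mul hκ, Real.sqrt_sq hl]

theorem sn_scale {κ l : ℝ} (hl : 0 < l) (t : ℝ) : sn (κ * l ^ 2) t = sn κ (l * t) / l := by
  rcases lt_trichotomy κ 0 with h | h | h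
  · have h' : κ * l ^ 2 < 0 := mul_neg_of_neg_of_pos h (by positivity)
    rw [sn_neg' h', sn_neg' h]
    have : √(-(κ * l ^ 2)) = √(-κ) * l := by
      rw [← sqrt_mul_sq (by linarith) hl.le]; congr 1; ring
    rw [this, div_div, mul_assoc]
  · subst h; simp [sn_zero']; field_simp
  · have h' : 0 < κ * l ^ 2 := by positivity
    rw [sn_pos' h', sn_pos' h, sqrt_mul_sq h.le hl.le, div_div, mul_assoc]

theorem md_scale {κ l : ℝ} (hl : 0 < l) (t : ℝ) : md (κ * l ^ 2) t = md κ (l * t) / l ^ 2 := by
  rcases lt_trichotomy κ 0 with h | h | h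
  · have h' : κ * l ^ 2 < 0 := mul_neg_of_neg_of_pos h (by positivity)
    rw [md_neg' h', md_neg' h]
    have : √(-(κ * l ^ 2)) = √(-κ) * l := by
      rw [← sqrt_mul_sq (by linarith) hl.le]; congr 1; ring
    rw [this, div_div, mul_assoc]
  · subst h; simp [md_zero']; field_simp
  · have h' : 0 < κ * l ^ 2 := by positivity
    rw [md_pos' h', md_pos' h, sqrt_mul_sq h.le hl.le, div_div, mul_assoc]

/-- `Cmp` from the differential inequality along a curve of speed `l`, times in `[a, b]`. -/
theorem cmp_of_ode_speed {κ l a b : ℝ} {ρ g : ℝ → ℝ} (hl : 0 < l) (hab : a < b)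
    (hg : IntervalIntegrable g volume a b)
    (hfg : ∀ t ∈ Icc a b, md κ (ρ b) - md κ (ρ t) = ∫ r in t..b, g r)
    (hineq : ∀ᵐ s, ∀ᵐ t, a < s → s < t → t < b →
      g t - g s ≤ l ^ 2 * ∫ r in s..t, (1 - κ * md κ (ρ r)))
    (hK : 0 < κ → √κ * (l * (b - a)) ≤ π) {t : ℝ} (ht : t ∈ Icc a b) :
    T.Cmp κ (ρ a) (ρ b) (l * (t - a)) (l * (b - t)) (ρ t) := by
  have mp : Measure.QuasiMeasurePreserving (fun x : ℝ => a + x) volume volume :=
    (measurePreserving_add_left volume a).quasiMeasurePreserving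
  have hsub : ∀ t ∈ Icc a b, IntervalIntegrable g volume a t ∧ IntervalIntegrable g volume t b :=
    fun t ht => ⟨hg.mono_set (by rw [uIcc_of_le ht.1, uIcc_of_le hab.le]
                                 exact Icc_subset_Icc le_rfl ht.2),
      hg.mono_set (by rw [uIcc_of_le ht.2, uIcc_of_le hab.le]
                      exact Icc_subset_Icc ht.1 le_rfl)⟩
  have hfg' : ∀ t ∈ Icc a b, md κ (ρ t) = md κ (ρ a) + ∫ r in a..t, g r := by
    intro t ht
    have h1 := hfg t ht
    have h2 := hfg a ⟨le_rfl, hab.le⟩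
    have h3 := intervalIntegral.integral_add_adjacent_intervals (hsub t ht).1 (hsub t ht).2
    linarith
  have key := twopoint (A := l ^ 2) (K := κ * l ^ 2) (L := b - a)
    (f := fun r => md κ (ρ (a + r))) (g := fun r => g (a + r)) (s := t - a)
    (by linarith) ?_ ?_ ?_ ?_ ⟨by linarith [ht.1], by linarith [ht.2]⟩
  · have e1 : a + (t - a) = t := by ring
    have e2 : a + (b - a) = b := by ring
    have e3 : b - a - (t - a) = b - t := by ring
    simp only [e1, e2, e3, add_zero, sn_scale hl, md_scale hl] at key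
    refine cmp_of_twopoint ?_
    have e4 : l * (t - a) + l * (b - t) = l * (b - a) := by ring
    rw [e4]
    have h1 := mul_le_mul_of_nonneg_left key hl.le
    have e5 : l * (md κ (ρ b) * (sn κ (l * (t - a)) / l) + md κ (ρ a) * (sn κ (l * (b - t)) / l))
        = md κ (ρ b) * sn κ (l * (t - a)) + md κ (ρ a) * sn κ (l * (b - t)) := by
      field_simp
    have e6 : l * (md κ (ρ t) * (sn κ (l * (b - a)) / l) + l ^ 2 *
        (md κ (l * (b - t)) / l ^ 2 * (sn κ (l * (t - a)) / l)
          + md κ (l * (t - a)) / l ^ 2 * (sn κ (l * (b - t)) / l)))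
        = md κ (ρ t) * sn κ (l * (b - a)) + (md κ (l * (b - t)) * sn κ (l * (t - a))
          + md κ (l * (t - a)) * sn κ (l * (b - t))) := by
      field_simp
    rw [e5, e6] at h1
    exact h1
  · have := hg.comp_add_left a
    simpa using this
  · intro r hr
    rw [hfg' (a + r) ⟨by linarith [hr.1], by linarith [hr.2]⟩]
    rw [intervalIntegral.integral_comp_add_left (fun r => g r) a]
    simp
  · filter_upwards [mp.ae hineq] with s hs
    filter_upwards [mp.ae hs] with r hr h0 hsr hrL
    have h1 := hr (by linarith) (by linarith) (by linarith)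
    refine h1.trans_eq ?_
    rw [← intervalIntegral.integral_const_mul,
      ← intervalIntegral.integral_comp_add_left (fun r => l ^ 2 * (1 - κ * md κ (ρ r))) a]
    refine intervalIntegral.integral_congr fun r _ => ?_
    ring
  · intro h0
    have hk : 0 < κ := by
      by_contra hneg
      have : κ * l ^ 2 ≤ 0 := mul_nonpos_of_nonpos_of_nonneg (not_lt.1 hneg) (by positivity)
      linarith
    rw [sqrt_mul_sq hk.le hl.le, mul_assoc]
    exact hK hk

end Vale.Agent.P233.H616
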