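import Vale.Agent.P233.AB.StmtAB

/-!
# P233, part F3/F4: the model functions `sn`, `cs`, `md` and the comparison for `f'' ≤ A - K f`
-/

open MeasureTheory Filter Topology Real Set
open scoped Interval

namespace Vale.Agent.P233.H616

/-- generalized cosine -/
noncomputable def cs (κ t : ℝ) : ℝ :=
  if κ = 0 then 1 else if 0 < κ then cos (√κ * t) else cosh (√(-κ) * t)

/-- generalized sine -/
noncomputable def sn (κ t : ℝ) : ℝ :=
  if κ = 0 then t else if 0 < κ then sin (√κ * t) / √κ else sinh (√(-κ) * t) / √(-κ)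

/-- the modified distance: `md' = sn`, `cs = 1 - κ md` -/
noncomputable def md (κ t : ℝ) : ℝ :=
  if κ = 0 then t ^ 2 / 2 else if 0 < κ then (1 - cos (√κ * t)) / κ
    else (1 - cosh (√(-κ) * t)) / κ

theorem cs_zero' (t : ℝ) : cs 0 t = 1 := by simp [cs]
theorem sn_zero' (t : ℝ) : sn 0 t = t := by simp [sn]
theorem md_zero' (t : ℝ) : md 0 t = t ^ 2 / 2 := by simp [md]

theorem cs_pos {κ : ℝ} (h : 0 < κ) (t : ℝ) : cs κ t = cos (√κ * t) := by
  simp [cs, h, h.ne']
theorem sn_pos' {κ : ℝ} (h : 0 < κ) (t : ℝ) : sn κ t = sin (√κ * t) / √κ := by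
  simp [sn, h, h.ne']
theorem md_pos' {κ : ℝ} (h : 0 < κ) (t : ℝ) : md κ t = (1 - cos (√κ * t)) / κ := by
  simp [md, h, h.ne']

theorem cs_neg' {κ : ℝ} (h : κ < 0) (t : ℝ) : cs κ t = cosh (√(-κ) * t) := by
  simp [cs, h.ne, h.le.not_gt]
theorem sn_neg' {κ : ℝ} (h : κ < 0) (t : ℝ) : sn κ t = sinh (√(-κ) * t) / √(-κ) := by
  simp [sn, h.ne, h.le.not_gt]
theorem md_neg' {κ : ℝ} (h : κ < 0) (t : ℝ) : md κ t = (1 - cosh (√(-κ) * t)) / κ := by
  simp [md, h.ne, h.le.not_gt]

theorem cs_eq (κ t : ℝ) : cs κ t = 1 - κ * md κ t := by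
  rcases lt_trichotomy κ 0 with h | h | h
  · rw [cs_neg' h, md_neg' h]; field_simp [h.ne]; ring
  · subst h; simp [cs_zero']
  · rw [cs_pos h, md_pos' h]; field_simp [h.ne']; ring

theorem hasDerivAt_md (κ t : ℝ) : HasDerivAt (md κ) (sn κ t) t := by
  rcases lt_trichotomy κ 0 with h | h | h
  · have e : md κ = fun t => (1 - cosh (√(-κ) * t)) / κ := by ext t; exact md_neg' h t
    rw [e, sn_neg' h]
    have h1 : HasDerivAt (fun t => √(-κ) * t) (√(-κ)) t := by
      simpa using (hasDerivAt_id t).const_mul (√(-κ))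
    have h2 := ((h1.cosh).const_sub 1).div_const κ
    refine h2.congr_deriv ?_
    have hs : √(-κ) ≠ 0 := (Real.sqrt_pos.2 (by linarith)).ne'
    have hk' : √(-κ) * √(-κ) = -κ := Real.mul_self_sqrt (by linarith)
    rw [div_eq_div_iff h.ne hs]
    linear_combination (-sinh (√(-κ) * t)) * hk'
  · subst h
    have e : md 0 = fun t => t ^ 2 / 2 := by ext t; exact md_zero' t
    rw [e, sn_zero']
    have := (hasDerivAt_pow 2 t).div_const 2
    refine this.congr_deriv ?_
    push_cast; ring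
  · have e : md κ = fun t => (1 - cos (√κ * t)) / κ := by ext t; exact md_pos' h t
    rw [e, sn_pos' h]
    have h1 : HasDerivAt (fun t => √κ * t) (√κ) t := by
      simpa using (hasDerivAt_id t).const_mul (√κ)
    have h2 := ((h1.cos).const_sub 1).div_const κ
    refine h2.congr_deriv ?_
    have hs : √κ ≠ 0 := (Real.sqrt_pos.2 h).ne'
    have hk' : √κ * √κ = κ := Real.mul_self_sqrt h.le
    rw [div_eq_div_iff h.ne' hs]
    linear_combination (sin (√κ * t)) * hk'

theorem hasDerivAt_sn (κ t : ℝ) : HasDerivAt (sn κ) (cs κ t) t := by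
  rcases lt_trichotomy κ 0 with h | h | h
  · have e : sn κ = fun t => sinh (√(-κ) * t) / √(-κ) := by ext t; exact sn_neg' h t
    rw [e, cs_neg' h]
    have h1 : HasDerivAt (fun t => √(-κ) * t) (√(-κ)) t := by
      simpa using (hasDerivAt_id t).const_mul (√(-κ))
    have h2 := (h1.sinh).div_const (√(-κ))
    refine h2.congr_deriv ?_
    have hs : √(-κ) ≠ 0 := (Real.sqrt_pos.2 (by linarith)).ne'
    rw [mul_div_cancel_right₀ _ hs]
  · subst h
    have e : sn 0 = fun t => t := by ext t; exact sn_zero' t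
    rw [e, cs_zero']
    exact hasDerivAt_id t
  · have e : sn κ = fun t => sin (√κ * t) / √κ := by ext t; exact sn_pos' h t
    rw [e, cs_pos h]
    have h1 : HasDerivAt (fun t => √κ * t) (√κ) t := by
      simpa using (hasDerivAt_id t).const_mul (√κ)
    have h2 := (h1.sin).div_const (√κ)
    refine h2.congr_deriv ?_
    have hs : √κ ≠ 0 := (Real.sqrt_pos.2 h).ne'
    rw [mul_div_cancel_right₀ _ hs]

theorem hasDerivAt_cs (κ t : ℝ) : HasDerivAt (cs κ) (-(κ * sn κ t)) t := by
  have e : cs κ = fun t => 1 - κ * md κ t := by ext t; exact cs_eq κ t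
  rw [e]
  simpa using ((hasDerivAt_md κ t).const_mul κ).const_sub 1

theorem continuous_md (κ : ℝ) : Continuous (md κ) :=
  continuous_iff_continuousAt.2 fun t => (hasDerivAt_md κ t).continuousAt
theorem continuous_sn (κ : ℝ) : Continuous (sn κ) :=
  continuous_iff_continuousAt.2 fun t => (hasDerivAt_sn κ t).continuousAt
theorem continuous_cs (κ : ℝ) : Continuous (cs κ) :=
  continuous_iff_continuousAt.2 fun t => (hasDerivAt_cs κ t).continuousAt

@[simp] theorem md_at_zero (κ : ℝ) : md κ 0 = 0 := by unfold md; split_ifs <;> simp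
@[simp] theorem sn_at_zero (κ : ℝ) : sn κ 0 = 0 := by unfold sn; split_ifs <;> simp
@[simp] theorem cs_at_zero (κ : ℝ) : cs κ 0 = 1 := by unfold cs; split_ifs <;> simp

theorem sn_add (κ a b : ℝ) : sn κ (a + b) = sn κ a * cs κ b + cs κ a * sn κ b := by
  rcases lt_trichotomy κ 0 with h | h | h
  · simp only [sn_neg' h, cs_neg' h, mul_add, Real.sinh_add]; ring
  · subst h; simp [sn_zero', cs_zero']
  · simp only [sn_pos' h, cs_pos h, mul_add, Real.sin_add]; ring

theorem cs_add (κ a b : ℝ) : cs κ (a + b) = cs κ a * cs κ b - κ * (sn κ a * sn κ b) := by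
  rcases lt_trichotomy κ 0 with h | h | h
  · have hs : √(-κ) ≠ 0 := (Real.sqrt_pos.2 (by linarith)).ne'
    have hk' : √(-κ) * √(-κ) = -κ := Real.mul_self_sqrt (by linarith)
    simp only [sn_neg' h, cs_neg' h, mul_add, Real.cosh_add]
    have : κ * (sinh (√(-κ) * a) / √(-κ) * (sinh (√(-κ) * b) / √(-κ)))
        = -(sinh (√(-κ) * a) * sinh (√(-κ) * b)) := by
      rw [div_mul_div_comm, hk']; field_simp [h.ne]
    rw [this]; ring
  · subst h; simp [cs_zero']
  · have hs : √κ ≠ 0 := (Real.sqrt_pos.2 h).ne'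
    have hk' : √κ * √κ = κ := Real.mul_self_sqrt h.le
    simp only [sn_pos' h, cs_pos h, mul_add, Real.cos_add]
    have : κ * (sin (√κ * a) / √κ * (sin (√κ * b) / √κ)) = sin (√κ * a) * sin (√κ * b) := by
      rw [div_mul_div_comm, hk']; field_simp [h.ne']
    rw [this]

@[simp] theorem sn_neg (κ a : ℝ) : sn κ (-a) = -sn κ a := by
  unfold sn; split_ifs <;> simp [mul_neg, Real.sin_neg, Real.sinh_neg, neg_div]
@[simp] theorem cs_neg (κ a : ℝ) : cs κ (-a) = cs κ a := by
  unfold cs; split_ifs <;> simp [mul_neg]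
@[simp] theorem md_neg (κ a : ℝ) : md κ (-a) = md κ a := by
  unfold md; split_ifs <;> simp [mul_neg]

/-- `md (a - b) + sn a * sn b = md a + md b - κ md a md b` -/
theorem md_sub (κ a b : ℝ) :
    md κ (a - b) = md κ a + md κ b - κ * (md κ a * md κ b) - sn κ a * sn κ b := by
  by_cases h : κ = 0
  · subst h; simp only [md_zero', sn_zero']; ring
  · have h1 : cs κ (a - b) = cs κ a * cs κ b + κ * (sn κ a * sn κ b) := by
      rw [sub_eq_add_neg, cs_add, sn_neg, cs_neg]; ring
    rw [cs_eq, cs_eq κ a, cs_eq κ b] at h1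
    have h2 : κ * md κ (a - b)
        = κ * (md κ a + md κ b - κ * (md κ a * md κ b) - sn κ a * sn κ b) := by linarith
    exact mul_left_cancel₀ h h2

theorem sn_nonneg {κ t : ℝ} (ht : 0 ≤ t) (h : 0 < κ → √κ * t ≤ π) : 0 ≤ sn κ t := by
  rcases lt_trichotomy κ 0 with h0 | h0 | h0
  · rw [sn_neg' h0]
    exact div_nonneg (Real.sinh_nonneg_iff.2 (by positivity)) (Real.sqrt_nonneg _)
  · subst h0; simpa [sn_zero'] using ht
  · rw [sn_pos' h0]
    exact div_nonneg (Real.sin_nonneg_of_nonneg_of_le_pi (by positivity) (h h0))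
      (Real.sqrt_nonneg _)

theorem sn_pos {κ t : ℝ} (ht : 0 < t) (h : 0 < κ → √κ * t < π) : 0 < sn κ t := by
  rcases lt_trichotomy κ 0 with h0 | h0 | h0
  · rw [sn_neg' h0]
    have hs : 0 < √(-κ) := Real.sqrt_pos.2 (by linarith)
    exact div_pos (Real.sinh_pos_iff.2 (by positivity)) hs
  · subst h0; simpa [sn_zero'] using ht
  · rw [sn_pos' h0]
    have hs : 0 < √κ := Real.sqrt_pos.2 h0
    exact div_pos (Real.sin_pos_of_pos_of_lt_pi (by positivity) (h h0)) hs

end Vale.Agent.P233.H616
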