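import Vale.Agent.P233.H616.Model

/-!
# P233, part F3: comparison for `f'' ≤ A - K f`
-/

open MeasureTheory Filter Topology Real Set
open scoped Interval

namespace Vale.Agent.P233.H616

section aux

/-- averages of an a.e. nonincreasing function decrease -/
theorem avg_anti {e : ℝ → ℝ} (he : ∀ a b, IntervalIntegrable e volume a b) {L : ℝ}
    (hmono : ∀ᵐ a, ∀ᵐ b, 0 < a → a < b → b < L → e b ≤ e a) {r t : ℝ} (hr : 0 < r) (hrt : r < t)
    (htL : t ≤ L) : r * (∫ x in (0 : ℝ)..t, e x) ≤ t * ∫ x in (0 : ℝ)..r, e x := by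
  have h1 : ∀ᵐ a, a ∈ Ioc 0 r → ∫ x in r..t, e x ≤ (t - r) * e a := by
    filter_upwards [hmono, Measure.ae_ne volume r] with a ha hne haI
    have har : a < r := lt_of_le_of_ne haI.2 hne
    have : ∫ x in r..t, e x ≤ ∫ x in r..t, e a := by
      refine intervalIntegral.integral_mono_ae_restrict hrt.le (he r t)
        intervalIntegrable_const ?_
      rw [EventuallyLE, ae_restrict_iff' measurableSet_Icc]
      filter_upwards [ha, Measure.ae_ne volume t, Measure.ae_ne volume r] with b hb hbt hbr hbI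
      exact hb haI.1 (har.trans_le hbI.1) ((lt_of_le_of_ne hbI.2 hbt).trans_le htL)
    simpa using this
  have h2 : ∫ a in (0 : ℝ)..r, (∫ x in r..t, e x) ≤ ∫ a in (0 : ℝ)..r, (t - r) * e a := by
    refine intervalIntegral.integral_mono_ae_restrict hr.le intervalIntegrable_const
      ((he 0 r).const_mul _) ?_
    rw [EventuallyLE, ae_restrict_iff' measurableSet_Icc]
    filter_upwards [h1, Measure.ae_ne volume 0] with a ha h0 haI
    exact ha ⟨lt_of_le_of_ne haI.1 (Ne.symm h0), haI.2⟩
  rw [intervalIntegral.integral_const, intervalIntegral.integral_const_mul] at h2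
  have h3 := intervalIntegral.integral_add_adjacent_intervals (he 0 r) (he r t)
  simp only [smul_eq_mul, sub_zero] at h2
  rw [← h3]
  nlinarith

theorem int_r_sn {K : ℝ} (hK : K ≠ 0) (t : ℝ) :
    ∫ r in (0 : ℝ)..t, sn K (t - r) * r = (t - sn K t) / K := by
  have h : ∀ r ∈ uIcc 0 t, HasDerivAt (fun r => (r * cs K (t - r) + sn K (t - r)) / K)
      (sn K (t - r) * r) r := by
    intro r _
    have h1 : HasDerivAt (fun r => t - r) (-1) r := by
      simpa using (hasDerivAt_id r).const_sub t
    have h2 := (hasDerivAt_cs K (t - r)).comp r h1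
    have h3 := (hasDerivAt_sn K (t - r)).comp r h1
    have h4 := (((hasDerivAt_id r).mul h2).add h3).div_const K
    refine h4.congr_deriv ?_
    simp only [id, Function.comp]
    rw [div_eq_iff hK]; ring
  rw [intervalIntegral.integral_eq_sub_of_hasDerivAt h]
  · simp [sub_div]
  · exact (((continuous_sn K).comp (continuous_const.sub continuous_id)).mul
      continuous_id).intervalIntegrable _ _

end aux

/-- comparison, first form: `f`, `g` nice on the whole line -/
theorem ode_comparison_aux {A K L m : ℝ} {f g : ℝ → ℝ}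
    (hg : ∀ a b, IntervalIntegrable g volume a b)
    (hfg : ∀ t, f t = f 0 + ∫ r in (0 : ℝ)..t, g r)
    (hineq : ∀ᵐ a, ∀ᵐ b, 0 < a → a < b → b < L → g b - g a ≤ ∫ r in a..b, (A - K * f r))
    (hm : Tendsto (fun s => (f s - f 0) / s) (𝓝[>] 0) (𝓝 m))
    (hK : 0 < K → √K * L ≤ π) {t : ℝ} (ht : 0 < t) (htL : t ≤ L) :
    f t ≤ f 0 * cs K t + m * sn K t + A * md K t := by
  obtain ⟨G, hG⟩ : ∃ G : ℝ → ℝ, G = fun t => f 0 * cs K t + m * sn K t + A * md K t := ⟨_, rfl⟩
  obtain ⟨G1, hG1⟩ : ∃ G1 : ℝ → ℝ,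
      G1 = fun t => -(K * f 0) * sn K t + m * cs K t + A * sn K t := ⟨_, rfl⟩
  have dG : ∀ t, HasDerivAt G (G1 t) t := by
    intro t
    have := (((hasDerivAt_cs K t).const_mul (f 0)).add ((hasDerivAt_sn K t).const_mul m)).add
      ((hasDerivAt_md K t).const_mul A)
    rw [hG, hG1]
    refine this.congr_deriv ?_
    ring
  have dG1 : ∀ t, HasDerivAt G1 (A - K * G t) t := by
    intro t
    have := (((hasDerivAt_sn K t).const_mul (-(K * f 0))).add
      ((hasDerivAt_cs K t).const_mul m)).add ((hasDerivAt_sn K t).const_mul A)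
    rw [hG1]
    refine this.congr_deriv ?_
    rw [hG]
    simp only
    rw [cs_eq K t]; ring
  have cG : Continuous G := continuous_iff_continuousAt.2 fun t => (dG t).continuousAt
  have cG1 : Continuous G1 := continuous_iff_continuousAt.2 fun t => (dG1 t).continuousAt
  have G0 : G 0 = f 0 := by rw [hG]; simp
  have G10 : G1 0 = m := by rw [hG1]; simp
  have cf : Continuous f := by
    have : f = fun t => f 0 + ∫ r in (0 : ℝ)..t, g r := by ext t; exact hfg t
    rw [this]
    exact continuous_const.add (intervalIntegral.continuous_primitive hg 0)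
  obtain ⟨D, hD⟩ : ∃ D : ℝ → ℝ, D = fun t => f t - G t := ⟨_, rfl⟩
  have cD : Continuous D := by rw [hD]; exact cf.sub cG
  obtain ⟨U, hU⟩ : ∃ U : ℝ → ℝ, U = fun t => ∫ r in (0 : ℝ)..t, D r := ⟨_, rfl⟩
  have dU : ∀ t, HasDerivAt U (D t) t := fun t => by
    rw [hU]
    exact intervalIntegral.integral_hasDerivAt_right (cD.intervalIntegrable _ _)
      (cD.stronglyMeasurableAtFilter _ _) cD.continuousAt
  have cU : Continuous U := continuous_iff_continuousAt.2 fun t => (dU t).continuousAt
  obtain ⟨V, hV⟩ : ∃ V : ℝ → ℝ, V = fun t => ∫ r in (0 : ℝ)..t, U r := ⟨_, rfl⟩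
  have dV : ∀ t, HasDerivAt V (U t) t := fun t => by
    rw [hV]
    exact intervalIntegral.integral_hasDerivAt_right (cU.intervalIntegrable _ _)
      (cU.stronglyMeasurableAtFilter _ _) cU.continuousAt
  have cV : Continuous V := continuous_iff_continuousAt.2 fun t => (dV t).continuousAt
  have U0 : U 0 = 0 := by rw [hU]; simp
  have V0 : V 0 = 0 := by rw [hV]; simp
  obtain ⟨e, he⟩ : ∃ e : ℝ → ℝ, e = fun t => g t - G1 t + K * U t := ⟨_, rfl⟩
  have ie : ∀ a b, IntervalIntegrable e volume a b := fun a b => by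
    rw [he]
    exact ((hg a b).sub (cG1.intervalIntegrable _ _)).add
      ((cU.intervalIntegrable _ _).const_mul K)
  obtain ⟨E, hE⟩ : ∃ E : ℝ → ℝ, E = fun t => D t + K * V t := ⟨_, rfl⟩
  have cE : Continuous E := by rw [hE]; exact cD.add (cV.const_smul K)
  have E_int : ∀ t, E t = ∫ r in (0 : ℝ)..t, e r := by
    intro t
    have h1 : ∫ r in (0 : ℝ)..t, G1 r = G t - G 0 :=
      intervalIntegral.integral_eq_sub_of_hasDerivAt (fun x _ => dG x)
        (cG1.intervalIntegrable _ _)
    have h2 : ∫ r in (0 : ℝ)..t, U r = V t := by rw [hV]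
    rw [he, intervalIntegral.integral_add ((hg 0 t).sub (cG1.intervalIntegrable _ _))
      ((cU.intervalIntegrable _ _).const_mul K),
      intervalIntegral.integral_sub (hg 0 t) (cG1.intervalIntegrable _ _),
      intervalIntegral.integral_const_mul, h1, h2, hE, hD]
    simp only
    rw [hfg t, G0]; ring
  have hmono : ∀ᵐ a, ∀ᵐ b, 0 < a → a < b → b < L → e b ≤ e a := by
    filter_upwards [hineq] with a ha
    filter_upwards [ha] with b hb h0 hab hbL
    have h1 := hb h0 hab hbL
    have h2 : ∫ r in a..b, (A - K * G r) = G1 b - G1 a :=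
      intervalIntegral.integral_eq_sub_of_hasDerivAt (fun x _ => dG1 x)
        ((continuous_const.sub (cG.const_smul K)).intervalIntegrable _ _)
    have h3 : ∫ r in a..b, D r = U b - U a :=
      intervalIntegral.integral_eq_sub_of_hasDerivAt (fun x _ => dU x)
        (cD.intervalIntegrable _ _)
    have h4 : ∫ r in a..b, (A - K * f r) = ∫ r in a..b, ((A - K * G r) - K * D r) := by
      refine intervalIntegral.integral_congr fun r _ => ?_
      simp only [hD]; ring
    have h5 : ∫ r in a..b, ((A - K * G r) - K * D r) = (G1 b - G1 a) - K * (U b - U a) := by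
      rw [intervalIntegral.integral_sub (f := fun r => A - K * G r) (g := fun r => K * D r)
        ((continuous_const.sub (continuous_const.mul cG)).intervalIntegrable _ _)
        ((continuous_const.mul cD).intervalIntegrable _ _), h2,
        intervalIntegral.integral_const_mul, h3]
    rw [he]
    simp only
    rw [h4, h5] at h1
    linarith
  have key : ∀ r t, 0 < r → r < t → t ≤ L → r * E t ≤ t * E r := by
    intro r t hr hrt htL
    rw [E_int, E_int]
    exact avg_anti ie hmono hr hrt htL
  have E_lim : Tendsto (fun r => E r / r) (𝓝[>] 0) (𝓝 0) := by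
    have h1 : Tendsto (fun r => (G r - G 0) / r) (𝓝[>] 0) (𝓝 m) := by
      have := (dG 0).tendsto_slope_zero_right
      rw [G10] at this
      refine this.congr' ?_
      filter_upwards with r
      simp [div_eq_inv_mul]
    have h2 : Tendsto (fun r => (V r - V 0) / r) (𝓝[>] 0) (𝓝 0) := by
      have := (dV 0).tendsto_slope_zero_right
      rw [U0] at this
      refine this.congr' ?_
      filter_upwards with r
      simp [div_eq_inv_mul]
    have h3 := (hm.sub h1).add (h2.const_mul K)
    simp only [sub_self, mul_zero, add_zero] at h3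
    refine h3.congr' ?_
    filter_upwards with r
    rw [hE, hD]
    simp only
    rw [G0, V0]; ring
  have E_nonpos : ∀ t, 0 < t → t ≤ L → E t ≤ 0 := by
    intro t ht htL
    have h1 : Tendsto (fun r => t * (E r / r)) (𝓝[>] 0) (𝓝 0) := by
      simpa using E_lim.const_mul t
    refine ge_of_tendsto h1 ?_
    filter_upwards [Ioo_mem_nhdsGT ht] with r hr
    have := key r t hr.1 hr.2 htL
    rw [← mul_div_assoc, le_div_iff₀ hr.1]
    linarith
  have V_int : ∀ t, ∫ r in (0 : ℝ)..t, sn K (t - r) * E r = V t := by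
    intro t
    have h : ∀ r ∈ uIcc 0 t, HasDerivAt (fun r => sn K (t - r) * U r + cs K (t - r) * V r)
        (sn K (t - r) * E r) r := by
      intro r _
      have h1 : HasDerivAt (fun r => t - r) (-1) r := by
        simpa using (hasDerivAt_id r).const_sub t
      have h2 := (hasDerivAt_cs K (t - r)).comp r h1
      have h3 := (hasDerivAt_sn K (t - r)).comp r h1
      have h4 := (h3.mul (dU r)).add (h2.mul (dV r))
      refine h4.congr_deriv ?_
      simp only [Function.comp, hE]
      ring
    rw [intervalIntegral.integral_eq_sub_of_hasDerivAt h]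
    · simp [U0, V0]
    · exact (((continuous_sn K).comp (continuous_const.sub continuous_id)).mul
        cE).intervalIntegrable _ _
  have csn : Continuous fun r => sn K (t - r) :=
    (continuous_sn K).comp (continuous_const.sub continuous_id)
  have sn0 : ∀ r ∈ Icc 0 t, 0 ≤ sn K (t - r) := fun r hr =>
    sn_nonneg (by linarith [hr.2]) fun h => le_trans
      (mul_le_mul_of_nonneg_left (by linarith [hr.1]) (Real.sqrt_nonneg K)) (hK h)
  suffices hDt : D t ≤ 0 by
    have : f t ≤ G t := by rw [hD] at hDt; simpa using hDt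
    rwa [hG] at this
  have hDE : D t = E t - K * V t := by rw [hE]; ring
  rcases le_or_gt K 0 with hK0 | hK0
  · have hV' : V t ≤ 0 := by
      rw [← V_int t]
      have : ∫ r in (0 : ℝ)..t, sn K (t - r) * E r ≤ ∫ r in (0 : ℝ)..t, (0 : ℝ) := by
        refine intervalIntegral.integral_mono_on_of_le_Ioo ht.le
          ((csn.mul cE).intervalIntegrable _ _) intervalIntegrable_const ?_
        intro r hr
        exact mul_nonpos_of_nonneg_of_nonpos (sn0 r ⟨hr.1.le, hr.2.le⟩)
          (E_nonpos r hr.1 (hr.2.le.trans htL))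
      simpa using this
    rw [hDE]
    nlinarith [E_nonpos t ht htL]
  · have h1 : E t / t * ((t - sn K t) / K) ≤ V t := by
      rw [← V_int t, ← int_r_sn hK0.ne', ← intervalIntegral.integral_const_mul]
      refine intervalIntegral.integral_mono_on_of_le_Ioo ht.le
        ((csn.mul continuous_id).const_smul (E t / t) |>.intervalIntegrable _ _)
        ((csn.mul cE).intervalIntegrable _ _) ?_
      intro r hr
      have h2 := key r t hr.1 hr.2 htL
      have h3 : E t / t * r ≤ E r := by
        rw [div_mul_eq_mul_div, div_le_iff₀ ht]; linarith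
      have h4 := mul_le_mul_of_nonneg_left h3 (sn0 r ⟨hr.1.le, hr.2.le⟩)
      calc E t / t * (sn K (t - r) * r) = sn K (t - r) * (E t / t * r) := by ring
        _ ≤ _ := h4
    have h2 : K * (E t / t * ((t - sn K t) / K)) = E t - E t / t * sn K t := by
      field_simp
    have h3 : E t / t ≤ 0 := div_nonpos_of_nonpos_of_nonneg (E_nonpos t ht htL) ht.le
    have h4 : 0 ≤ sn K t := by simpa using sn0 0 ⟨le_rfl, ht.le⟩
    rw [hDE]
    have h5 := mul_le_mul_of_nonneg_left h1 hK0.le
    rw [h2] at h5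
    nlinarith [mul_nonpos_of_nonpos_of_nonneg h3 h4]

/-- **Comparison** for `f'' ≤ A - K f` on `[0, L]`. -/
theorem ode_comparison {A K L m : ℝ} {f g : ℝ → ℝ}
    (hg : IntervalIntegrable g volume 0 L)
    (hfg : ∀ t ∈ Icc 0 L, f t = f 0 + ∫ r in (0 : ℝ)..t, g r)
    (hineq : ∀ᵐ a, ∀ᵐ b, 0 < a → a < b → b < L → g b - g a ≤ ∫ r in a..b, (A - K * f r))
    (hm : Tendsto (fun s => (f s - f 0) / s) (𝓝[>] 0) (𝓝 m))
    (hK : 0 < K → √K * L ≤ π) {t : ℝ} (ht : 0 ≤ t) (htL : t ≤ L) :
    f t ≤ f 0 * cs K t + m * sn K t + A * md K t := by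
  rcases ht.eq_or_lt with rfl | ht
  · simp
  have hL : 0 < L := ht.trans_le htL
  obtain ⟨g1, hg1⟩ : ∃ g1 : ℝ → ℝ, g1 = (Ioo 0 L).indicator g := ⟨_, rfl⟩
  have ig : IntegrableOn g (Ioo 0 L) :=
    ((intervalIntegrable_iff_integrableOn_Ioo_of_le hL.le).1 hg)
  have ig1 : Integrable g1 := by rw [hg1]; exact (integrable_indicator_iff measurableSet_Ioo).2 ig
  have h0 : ∀ s ∈ Icc (0 : ℝ) L, ∫ r in (0 : ℝ)..s, g1 r = ∫ r in (0 : ℝ)..s, g r := by
    intro s hs
    rw [intervalIntegral.integral_of_le hs.1, intervalIntegral.integral_of_le hs.1,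
      integral_Ioc_eq_integral_Ioo, integral_Ioc_eq_integral_Ioo]
    refine setIntegral_congr_fun measurableSet_Ioo fun r hr => ?_
    rw [hg1, indicator_of_mem (show r ∈ Ioo 0 L from ⟨hr.1, hr.2.trans_le hs.2⟩)]
  obtain ⟨f1, hf1⟩ : ∃ f1 : ℝ → ℝ, f1 = fun t => f 0 + ∫ r in (0 : ℝ)..t, g1 r := ⟨_, rfl⟩
  have hff : ∀ s ∈ Icc (0 : ℝ) L, f1 s = f s := fun s hs => by
    rw [hf1, hfg s hs]; simp only; rw [h0 s hs]
  have f10 : f1 0 = f 0 := hff 0 ⟨le_rfl, hL.le⟩
  have := ode_comparison_aux (A := A) (K := K) (L := L) (m := m) (f := f1) (g := g1)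
    (fun a b => ig1.intervalIntegrable) (fun t => by rw [f10, hf1]) ?_ ?_ hK ht htL
  · rwa [hff t ⟨ht.le, htL⟩, f10] at this
  · filter_upwards [hineq] with a ha
    filter_upwards [ha] with b hb h0 hab hbL
    have h1 := hb h0 hab hbL
    rw [hg1, indicator_of_mem (show b ∈ Ioo 0 L from ⟨h0.trans hab, hbL⟩),
      indicator_of_mem (show a ∈ Ioo 0 L from ⟨h0, hab.trans hbL⟩)]
    refine h1.trans_eq (intervalIntegral.integral_congr fun r hr => ?_)
    rw [uIcc_of_le hab.le] at hr
    show A - K * f r = A - K * f1 r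
    rw [hff r ⟨h0.le.trans hr.1, hr.2.trans hbL.le⟩]
  · refine hm.congr' ?_
    filter_upwards [Ioo_mem_nhdsGT hL] with s hs
    rw [hff s ⟨hs.1.le, hs.2.le⟩, f10]

end Vale.Agent.P233.H616
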