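import Vale.Agent.P233.H616.Bridge
import Vale.Agent.P233.H368.F2Out

/-!
# P233, part F2: from the flows (`HasConc`) to radial concavity (`RadConc`)
-/

open MeasureTheory Filter Topology Real Set
open scoped Interval

universe u

set_option linter.unusedSectionVars false

namespace Vale.Agent.P233.H616

open Vale.Agent.P233.PD Vale.Agent.P233.PF

theorem cmp_tendsto {κ : ℝ} {a b s t r : ℕ → ℝ} {a0 b0 s0 t0 r0 : ℝ}
    (ha : Tendsto a atTop (𝓝 a0)) (hb : Tendsto b atTop (𝓝 b0)) (hs : Tendsto s atTop (𝓝 s0))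
    (ht : Tendsto t atTop (𝓝 t0)) (hr : Tendsto r atTop (𝓝 r0))
    (h : ∀ᶠ n in atTop, T.Cmp κ (a n) (b n) (s n) (t n) (r n)) : T.Cmp κ a0 b0 s0 t0 r0 := by
  refine ⟨fun h0 => ?_, fun h0 => ?_, fun h0 => ?_⟩
  · refine le_of_tendsto_of_tendsto (b := (atTop : Filter ℕ)) ?_ ?_ (h.mono fun n hn => hn.1 h0)
    · exact (((ht.mul (ha.pow 2)).add (hs.mul (hb.pow 2))).sub ((hs.mul ht).mul (hs.add ht)))
    · exact ((hs.add ht).mul (hr.pow 2))
  · have c1 : ∀ {u : ℕ → ℝ} {v : ℝ}, Tendsto u atTop (𝓝 v) →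
        Tendsto (fun n => cos (√κ * u n)) atTop (𝓝 (cos (√κ * v))) := fun hu =>
      (continuous_cos.tendsto _).comp (tendsto_const_nhds.mul hu)
    have c2 : ∀ {u : ℕ → ℝ} {v : ℝ}, Tendsto u atTop (𝓝 v) →
        Tendsto (fun n => sin (√κ * u n)) atTop (𝓝 (sin (√κ * v))) := fun hu =>
      (continuous_sin.tendsto _).comp (tendsto_const_nhds.mul hu)
    refine le_of_tendsto_of_tendsto (b := (atTop : Filter ℕ)) ?_ ?_ (h.mono fun n hn => hn.2.1 h0)
    · exact (c2 (hs.add ht)).mul (c1 hr)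
    · exact ((c2 ht).mul (c1 ha)).add ((c2 hs).mul (c1 hb))
  · have c1 : ∀ {u : ℕ → ℝ} {v : ℝ}, Tendsto u atTop (𝓝 v) →
        Tendsto (fun n => cosh (√(-κ) * u n)) atTop (𝓝 (cosh (√(-κ) * v))) := fun hu =>
      (continuous_cosh.tendsto _).comp (tendsto_const_nhds.mul hu)
    have c2 : ∀ {u : ℕ → ℝ} {v : ℝ}, Tendsto u atTop (𝓝 v) →
        Tendsto (fun n => sinh (√(-κ) * u n)) atTop (𝓝 (sinh (√(-κ) * v))) := fun hu =>
      (continuous_sinh.tendsto _).comp (tendsto_const_nhds.mul hu)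
    refine le_of_tendsto_of_tendsto (b := (atTop : Filter ℕ)) ?_ ?_ (h.mono fun n hn => hn.2.2 h0)
    · exact ((c2 ht).mul (c1 ha)).add ((c2 hs).mul (c1 hb))
    · exact (c2 (hs.add ht)).mul (c1 hr)

variable {M : Type u} [MetricSpace M] [MeasurableSpace M] {m : Measure M}

/-- the pointwise form of `RadConc` -/
def PW (κ : ℝ) (w p x : M) (s : ℝ) : Prop :=
  ∃ z : M, dist w z = s ∧ dist z x = dist w x - s ∧
    T.Cmp κ (dist p w) (dist p x) s (dist w x - s) (dist p z)

theorem PW.zero (κ : ℝ) (w p x : M) : PW κ w p x 0 := by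
  refine ⟨w, dist_self w, by ring, ?_⟩
  refine ⟨fun h => ?_, fun h => ?_, fun h => ?_⟩
  · simp
  · simp
  · simp

theorem PW.full (κ : ℝ) (w p x : M) : PW κ w p x (dist w x) := by
  refine ⟨x, rfl, by rw [dist_self]; ring, ?_⟩
  refine ⟨fun h => ?_, fun h => ?_, fun h => ?_⟩
  · simp
  · simp
  · simp

theorem radConc_of_pw {κ : ℝ} (h : ∀ w p x : M,
    √κ * (dist w p + dist p x + dist x w) < 2 * π → ∀ s ∈ Icc 0 (dist w x), PW κ w p x s) :
    RadConc M κ := by
  intro w p x hper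
  classical
  have h1 : ∀ s : ℝ, ∃ z : M, s ∈ Icc 0 (dist w x) → (dist w z = s ∧ dist z x = dist w x - s ∧
      T.Cmp κ (dist p w) (dist p x) s (dist w x - s) (dist p z)) := by
    intro s
    by_cases hs : s ∈ Icc 0 (dist w x)
    · obtain ⟨z, hz⟩ := h w p x hper s hs
      exact ⟨z, fun _ => hz⟩
    · exact ⟨w, fun h => absurd h hs⟩
  choose σ hσ using h1
  exact ⟨σ, fun s hs => ⟨(hσ s hs).1, (hσ s hs).2.1⟩, fun s hs => (hσ s hs).2.2⟩

/-- closedness -/
theorem PW.of_tendsto [ProperSpace M] {κ : ℝ} {w p x : M} {s : ℝ} {a b s' t' : ℕ → ℝ}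
    {z : ℕ → M} {x' : ℕ → M}
    (hx : Tendsto x' atTop (𝓝 x)) (ha : Tendsto a atTop (𝓝 (dist p w)))
    (hb : Tendsto b atTop (𝓝 (dist p x))) (hs : Tendsto s' atTop (𝓝 s))
    (ht : Tendsto t' atTop (𝓝 (dist w x - s)))
    (hz : ∀ᶠ k in atTop, dist w (z k) = s ∧ dist (z k) (x' k) = dist w (x' k) - s ∧
      T.Cmp κ (a k) (b k) (s' k) (t' k) (dist p (z k))) : PW κ w p x s := by
  have hbd : ∃ᶠ k in atTop, z k ∈ Metric.closedBall w s := by
    refine Eventually.frequently (hz.mono fun k hk => ?_)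
    rw [Metric.mem_closedBall, dist_comm]; exact hk.1.le
  obtain ⟨z0, -, φ, hφ, hlim⟩ :=
    (isCompact_closedBall w s).isSeqCompact.subseq_of_frequently_in hbd
  have hφt := hφ.tendsto_atTop
  have hz' := hφt.eventually hz
  refine ⟨z0, ?_, ?_, ?_⟩
  · have h1 : Tendsto (fun k => dist w (z (φ k))) atTop (𝓝 (dist w z0)) :=
      tendsto_const_nhds.dist hlim
    have h2 : Tendsto (fun k => dist w (z (φ k))) atTop (𝓝 s) :=
      tendsto_const_nhds.congr' (hz'.mono fun k hk => hk.1.symm)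
    exact tendsto_nhds_unique h1 h2
  · have h1 : Tendsto (fun k => dist (z (φ k)) (x' (φ k))) atTop (𝓝 (dist z0 x)) :=
      hlim.dist (hx.comp hφt)
    have h2 : Tendsto (fun k => dist (z (φ k)) (x' (φ k))) atTop (𝓝 (dist w x - s)) := by
      have h3 : Tendsto (fun k => dist w (x' (φ k)) - s) atTop (𝓝 (dist w x - s)) :=
        (tendsto_const_nhds.dist (hx.comp hφt)).sub_const s
      exact h3.congr' (hz'.mono fun k hk => hk.2.1.symm)
    exact tendsto_nhds_unique h1 h2
  · exact cmp_tendsto (ha.comp hφt) (hb.comp hφt) (hs.comp hφt) (ht.comp hφt)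
      (tendsto_const_nhds.dist hlim) (hz'.mono fun k hk => hk.2.2)

/-- `Cmp` along one curve of the flow -/
theorem cmp_of_concAt {κ R Λ₀ s₀ : ℝ} {p q x : M} {Y : ℝ → M → M} (hs₀ : 0 < s₀)
    (hqx : 0 < dist q x)
    (hrad : ∀ t ∈ Ioc (0 : ℝ) 1, dist q (Y t x) = (t + s₀) / (1 + s₀) * dist q x ∧
      dist (Y t x) x = (1 - t) / (1 + s₀) * dist q x)
    (hconc : ConcAt κ p R Λ₀ q s₀ Y x)
    (hR : (dist q p + dist p x + dist x q) / 2 < R)
    (hper : √κ * (dist q p + dist p x + dist x q) < 2 * π)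
    {a t : ℝ} (ha : 0 < a) (hat : a ≤ t) (ht : t ≤ 1) (ha1 : a < 1) :
    T.Cmp κ (dist p (Y a x)) (dist p x) (dist q x / (1 + s₀) * (t - a))
      (dist q x / (1 + s₀) * (1 - t)) (dist p (Y t x)) := by
  obtain ⟨g, hg1, hg2, hg3⟩ := hconc
  have h1s : 0 < 1 + s₀ := by linarith
  have hl : 0 < dist q x / (1 + s₀) := div_pos hqx h1s
  -- `Y 1 x = x`
  have hY1 : Y 1 x = x := by
    have := (hrad 1 ⟨one_pos, le_rfl⟩).2
    simp only [sub_self, zero_div, zero_mul] at this
    exact dist_eq_zero.1 this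
  -- the curve stays in the ball
  have hlt : ∀ r ∈ Ioc (0 : ℝ) 1, dist p (Y r x) < R := by
    intro r hr
    obtain ⟨h1, h2⟩ := hrad r hr
    have h3 := dist_triangle p q (Y r x)
    have h4 := dist_triangle p x (Y r x)
    have h5 : dist q (Y r x) + dist x (Y r x) = dist x q := by
      rw [dist_comm x (Y r x), h1, h2, dist_comm x q]
      field_simp
      ring
    rw [dist_comm p q] at h3
    linarith
  have hmdr : ∀ r ∈ Ioc (0 : ℝ) 1, mdr κ p R (Y r x) = md κ (dist p (Y r x))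
      - Vale.Agent.P233.md κ R := by
    intro r hr
    unfold mdr
    rw [min_eq_left (hlt r hr).le, md_eq]
  have hmdrx : mdr κ p R x = md κ (dist p x) - Vale.Agent.P233.md κ R := by
    have := hmdr 1 ⟨one_pos, le_rfl⟩
    rwa [hY1] at this
  have hLx : dist q x ≤ (dist q p + dist p x + dist x q) / 2 := by
    have := dist_triangle q p x
    rw [dist_comm x q]; linarith
  have := cmp_of_ode_speed (κ := κ) (l := dist q x / (1 + s₀)) (a := a) (b := 1)
    (ρ := fun r => dist p (Y r x)) (g := g) hl ha1 (hg1 a ha ha1.le) ?_ ?_ ?_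
    (t := t) ⟨hat, ht⟩
  · simpa only [hY1] using this
  · intro r hr
    have hr' : r ∈ Ioc (0 : ℝ) 1 := ⟨ha.trans_le hr.1, hr.2⟩
    have h1 := hg2 r hr'
    rw [hmdr r hr', hmdrx] at h1
    simp only [hY1]
    linarith
  · filter_upwards [hg3] with b hb
    filter_upwards [hb] with c hc hab hbc hc1
    refine (hc (ha.trans hab) hbc hc1).trans_eq ?_
    rw [← intervalIntegral.integral_const_mul]
    refine intervalIntegral.integral_congr fun r hr => ?_
    rw [uIcc_of_le hbc.le] at hr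
    have hr' : r ∈ Ioc (0 : ℝ) 1 := ⟨ha.trans (hab.trans_le hr.1), hr.2.trans hc1.le⟩
    show Lam κ p R Λ₀ (Y r x) * (dist q x / (1 + s₀)) ^ 2
      = (dist q x / (1 + s₀)) ^ 2 * (1 - κ * md κ (dist p (Y r x)))
    unfold Lam
    rw [if_pos (hlt r hr'), ← cs_eq', cs_eq]
    ring
  · intro hκ
    have h1 : dist q x / (1 + s₀) * (1 - a) ≤ dist q x := by
      have h2 : dist q x / (1 + s₀) ≤ dist q x := div_le_self dist_nonneg (by linarith)
      calc dist q x / (1 + s₀) * (1 - a) ≤ dist q x / (1 + s₀) * 1 :=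
            mul_le_mul_of_nonneg_left (by linarith) hl.le
        _ ≤ dist q x := by rw [mul_one]; exact h2
    calc √κ * (dist q x / (1 + s₀) * (1 - a)) ≤ √κ * ((dist q p + dist p x + dist x q) / 2) :=
          mul_le_mul_of_nonneg_left (h1.trans hLx) (Real.sqrt_nonneg κ)
      _ ≤ π := by linarith

/-- an increasing sequence of admissible radii -/
theorem exists_radii (κ : ℝ) : ∃ R : ℕ → ℝ, (∀ N, Adm κ (R N)) ∧
    ∀ P : ℝ, √κ * P < 2 * π → ∃ N, P / 2 < R N ∧ P < N := by
  rcases le_or_gt κ 0 with h | h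
  · refine ⟨fun N => N + 1, fun N => ⟨by positivity, ?_⟩, fun P _ => ?_⟩
    · rw [Real.sqrt_eq_zero_of_nonpos h]; simpa using Real.pi_pos
    · obtain ⟨N, hN⟩ := exists_nat_gt (max P 0)
      refine ⟨N, ?_, (le_max_left _ _).trans_lt hN⟩
      have h1 := le_max_left P 0
      have h2 := le_max_right P 0
      simp only
      linarith
  · have hs : 0 < √κ := Real.sqrt_pos.2 h
    refine ⟨fun N => π / √κ * (1 - 1 / (N + 2)), fun N => ⟨?_, ?_⟩, fun P hP => ?_⟩
    · have : (1 : ℝ) / (N + 2) < 1 := by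
        rw [div_lt_one (by positivity)]; have : (0 : ℝ) ≤ N := Nat.cast_nonneg N
        linarith
      have h1 : 0 < 1 - (1 : ℝ) / (N + 2) := by linarith
      exact mul_pos (div_pos Real.pi_pos hs) h1
    · have h1 : √κ * (π / √κ * (1 - 1 / ((N : ℝ) + 2))) = π * (1 - 1 / (N + 2)) := by
        field_simp
      rw [h1]
      have : (0 : ℝ) < 1 / ((N : ℝ) + 2) := by positivity
      nlinarith [Real.pi_pos]
    · have h0 : P / 2 < π / √κ := by
        rw [lt_div_iff₀ hs]; linarith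
      have hlim : Tendsto (fun N : ℕ => π / √κ * (1 - 1 / ((N : ℝ) + 2))) atTop
          (𝓝 (π / √κ * (1 - 0))) := by
        refine tendsto_const_nhds.mul (tendsto_const_nhds.sub ?_)
        have := (tendsto_one_div_add_atTop_nhds_zero_nat (𝕜 := ℝ)).comp (tendsto_add_atTop_nat 1)
        refine this.congr fun N => ?_
        simp only [Function.comp, Nat.cast_add, Nat.cast_one]
        congr 1; ring
      simp only [sub_zero, mul_one] at hlim
      have e1 := hlim.eventually_const_lt h0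
      have e2 : ∀ᶠ N : ℕ in atTop, P < N := by
        obtain ⟨N, hN⟩ := exists_nat_gt P
        filter_upwards [eventually_ge_atTop N] with k hk
        exact hN.trans_le (by exact_mod_cast hk)
      obtain ⟨N, h1, h2⟩ := (e1.and e2).exists
      exact ⟨N, h1, h2⟩

theorem pw_ae [ProperSpace M] {n κ : ℝ} (h : HasConc m n κ) (w p : M) :
    ∀ᵐ x ∂m, √κ * (dist w p + dist p x + dist x w) < 2 * π →
      ∀ s ∈ Ioo 0 (dist w x), PW κ w p x s := by
  obtain ⟨R, hR1, hR2⟩ := exists_radii κ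
  have key : ∀ N k : ℕ, ∃ (Λ₀ : ℝ) (Y : ℝ → M → M), ∀ᵐ x ∂m, dist w x < N + 1 →
      (∀ t ∈ Ioc (0 : ℝ) 1, dist w (Y t x) = (t + ((k : ℝ) + 1)⁻¹) / (1 + ((k : ℝ) + 1)⁻¹) * dist w x ∧
        dist (Y t x) x = (1 - t) / (1 + ((k : ℝ) + 1)⁻¹) * dist w x) ∧
      ConcAt κ p (R N) Λ₀ w ((k : ℝ) + 1)⁻¹ Y x := by
    intro N k
    obtain ⟨Λ₀, hΛ⟩ := h p (R N) (hR1 N)
    obtain ⟨K, hK⟩ := hΛ (N + 1) (by positivity)
    obtain ⟨Y, hY1, hY2⟩ := hK w ((k : ℝ) + 1)⁻¹ ⟨by positivity, by
      rw [inv_le_one₀ (by positivity)]; have : (0 : ℝ) ≤ k := Nat.cast_nonneg k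
      linarith⟩
    refine ⟨Λ₀, Y, ?_⟩
    filter_upwards [hY1.rad, hY2] with x h1 h2 hx
    exact ⟨h1 hx, h2 hx⟩
  choose Λ₀ Y hY using key
  filter_upwards [ae_all_iff.2 fun N => ae_all_iff.2 fun k => hY N k] with x hx hper s hs
  obtain ⟨N, hN1, hN2⟩ := hR2 _ hper
  have hL : 0 < dist w x := hs.1.trans hs.2
  have hwx : dist w x < N + 1 := by
    have h1 : dist w x ≤ dist w p + dist p x + dist x w := by
      have := dist_triangle w p x
      have := dist_nonneg (x := x) (y := w)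
      linarith
    have : (N : ℝ) < N + 1 := by linarith
    linarith
  obtain ⟨L, hLe⟩ : ∃ L, L = dist w x := ⟨_, rfl⟩
  obtain ⟨e, he⟩ : ∃ e : ℕ → ℝ, e = fun k : ℕ => ((k : ℝ) + 1)⁻¹ := ⟨_, rfl⟩
  have he0 : ∀ k, 0 < e k := fun k => by rw [he]; positivity
  have helim : Tendsto e atTop (𝓝 0) := by
    rw [he]
    simpa [one_div] using tendsto_one_div_add_atTop_nhds_zero_nat (𝕜 := ℝ)
  obtain ⟨T, hT⟩ : ∃ T : ℕ → ℝ, T = fun k : ℕ => s * (1 + e k) / L - e k := ⟨_, rfl⟩
  have hTlim : Tendsto T atTop (𝓝 (s / L)) := by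
    rw [hT]
    have h1 : Tendsto (fun k => s * (1 + e k) / L - e k) atTop (𝓝 (s * (1 + 0) / L - 0)) :=
      ((tendsto_const_nhds.mul (tendsto_const_nhds.add helim)).div_const L).sub helim
    simpa using h1
  have hL' : 0 < L := hLe ▸ hL
  have hsL : s < L := hLe ▸ hs.2
  have hev : ∀ᶠ k in atTop, e k ≤ T k ∧ e k < 1 := by
    have h1 : ∀ᶠ k in atTop, e k < s / L / 2 :=
      helim.eventually_lt_const (by have := div_pos hs.1 hL'; linarith)
    have h2 : ∀ᶠ k in atTop, s / L / 2 < T k :=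
      hTlim.eventually_const_lt (by have := div_pos hs.1 hL'; linarith)
    have h3 : ∀ᶠ k in atTop, e k < 1 := helim.eventually_lt_const one_pos
    filter_upwards [h1, h2, h3] with k h1 h2 h3
    exact ⟨(h1.trans h2).le, h3⟩
  have hTle : ∀ k, T k ≤ 1 := by
    intro k
    have h1 := he0 k
    rw [hT]
    have h2 : s * (1 + e k) / L ≤ 1 + e k := by
      rw [div_le_iff₀ hL']; nlinarith
    simp only
    linarith
  refine PW.of_tendsto (x' := fun _ => x) (a := fun k => dist p (Y N k (e k) x))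
    (b := fun _ => dist p x) (s' := fun k => L / (1 + e k) * (T k - e k))
    (t' := fun k => L / (1 + e k) * (1 - T k)) (z := fun k => Y N k (T k) x)
    tendsto_const_nhds ?_ tendsto_const_nhds ?_ ?_ ?_
  · -- `Y (e k) x → w`
    have h1 : Tendsto (fun k => dist w (Y N k (e k) x)) atTop (𝓝 0) := by
      have h2 : Tendsto (fun k => (e k + e k) / (1 + e k) * L) atTop
          (𝓝 ((0 + 0) / (1 + 0) * L)) :=
        ((helim.add helim).div (tendsto_const_nhds.add helim) (by norm_num)).mul_const L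
      simp only [add_zero, zero_div, zero_mul] at h2
      refine h2.congr' ?_
      filter_upwards [hev] with k hk
      have h3 := ((hx N k hwx).1 (e k) ⟨he0 k, hk.2.le⟩).1
      rw [he, hLe]
      rw [he] at h3
      exact h3.symm
    have h2 : Tendsto (fun k => Y N k (e k) x) atTop (𝓝 w) := by
      rw [tendsto_iff_dist_tendsto_zero]
      exact h1.congr fun k => dist_comm _ _
    exact tendsto_const_nhds.dist h2
  · have h1 : Tendsto (fun k => L / (1 + e k) * (T k - e k)) atTop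
        (𝓝 (L / (1 + 0) * (s / L - 0))) :=
      (tendsto_const_nhds.div (tendsto_const_nhds.add helim) (by norm_num)).mul
        (hTlim.sub helim)
    have h2 : L / (1 + 0) * (s / L - 0) = s := by field_simp; ring
    rwa [h2] at h1
  · have h1 : ∀ k, L / (1 + e k) * (1 - T k) = dist w x - s := by
      intro k
      have h2 : 1 + e k ≠ 0 := by have := he0 k; positivity
      rw [hT, ← hLe]
      field_simp
      ring
    simp only [h1]
    exact tendsto_const_nhds
  · filter_upwards [hev] with k hk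
    have hTk : T k ∈ Ioc (0 : ℝ) 1 := ⟨(he0 k).trans_le hk.1, hTle k⟩
    have h2 : 1 + e k ≠ 0 := by have := he0 k; positivity
    obtain ⟨hr1, hr2⟩ := (hx N k hwx).1 (T k) hTk
    have hek : ((k : ℝ) + 1)⁻¹ = e k := by rw [he]
    rw [hek, ← hLe] at hr1 hr2
    refine ⟨?_, ?_, ?_⟩
    · rw [hr1, hT]; field_simp; ring
    · rw [hr2, hT, ← hLe]; field_simp; ring
    · have h3 := cmp_of_concAt (κ := κ) (p := p) (q := w) (x := x) (R := R N) (Λ₀ := Λ₀ N k)
        (s₀ := ((k : ℝ) + 1)⁻¹) (Y := Y N k) (by positivity) hL (hx N k hwx).1 (hx N k hwx).2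
        hN1 hper (a := e k) (t := T k) (he0 k) hk.1 (hTle k) hk.2
      rw [hek, ← hLe] at h3
      exact h3

/-- **Part F2, metric half.** -/
theorem radConc_of_conc [ProperSpace M] (hm : m.IsOpenPosMeasure) {n κ : ℝ}
    (h : HasConc m n κ) : RadConc M κ := by
  refine radConc_of_pw fun w p x hper s hs => ?_
  rcases hs.1.eq_or_lt with h0 | h0
  · rw [← h0]; exact PW.zero κ w p x
  rcases hs.2.eq_or_lt with h1 | h1
  · rw [h1]; exact PW.full κ w p x
  -- approximate `x` by good points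
  have hgood := pw_ae h w p
  have hdense : ∀ δ > 0, ∃ y, dist y x < δ ∧
      (√κ * (dist w p + dist p y + dist y w) < 2 * π → ∀ s ∈ Ioo 0 (dist w y), PW κ w p y s) := by
    intro δ hδ
    by_contra hcon
    push Not at hcon
    have hsub : Metric.ball x δ ⊆ {y | ¬ (√κ * (dist w p + dist p y + dist y w) < 2 * π →
        ∀ s ∈ Ioo 0 (dist w y), PW κ w p y s)} := by
      intro y hy
      obtain ⟨h1, s, h2, h3⟩ := hcon y hy
      show ¬ _
      exact fun hc => h3 (hc h1 s h2)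
    have h0 : m (Metric.ball x δ) = 0 := measure_mono_null hsub (ae_iff.1 hgood)
    exact (Metric.isOpen_ball.measure_pos m ⟨x, Metric.mem_ball_self hδ⟩).ne' h0
  choose y hy1 hy2 using fun k : ℕ => hdense (1 / ((k : ℝ) + 1)) (by positivity)
  have hylim : Tendsto y atTop (𝓝 x) := by
    rw [tendsto_iff_dist_tendsto_zero]
    refine squeeze_zero (fun _ => dist_nonneg) (fun k => (hy1 k).le)
      (tendsto_one_div_add_atTop_nhds_zero_nat (𝕜 := ℝ))
  have hper' : ∀ᶠ k in atTop, √κ * (dist w p + dist p (y k) + dist (y k) w) < 2 * π := by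
    have : Tendsto (fun k => √κ * (dist w p + dist p (y k) + dist (y k) w)) atTop
        (𝓝 (√κ * (dist w p + dist p x + dist x w))) :=
      tendsto_const_nhds.mul ((tendsto_const_nhds.add (tendsto_const_nhds.dist hylim)).add
        (hylim.dist tendsto_const_nhds))
    exact this.eventually_lt_const hper
  have hs' : ∀ᶠ k in atTop, s < dist w (y k) := by
    have : Tendsto (fun k => dist w (y k)) atTop (𝓝 (dist w x)) :=
      tendsto_const_nhds.dist hylim
    exact this.eventually_const_lt h1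
  have hz : ∀ k : ℕ, ∃ z : M, (√κ * (dist w p + dist p (y k) + dist (y k) w) < 2 * π ∧
      s < dist w (y k)) → (dist w z = s ∧ dist z (y k) = dist w (y k) - s ∧
        T.Cmp κ (dist p w) (dist p (y k)) s (dist w (y k) - s) (dist p z)) := by
    intro k
    by_cases hc : √κ * (dist w p + dist p (y k) + dist (y k) w) < 2 * π ∧ s < dist w (y k)
    · obtain ⟨z, hz⟩ := hy2 k hc.1 s ⟨h0, hc.2⟩
      exact ⟨z, fun _ => hz⟩
    · exact ⟨w, fun h => absurd h hc⟩
  choose z hz using hz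
  refine PW.of_tendsto (x' := y) (a := fun _ => dist p w) (b := fun k => dist p (y k))
    (s' := fun _ => s) (t' := fun k => dist w (y k) - s) (z := z) hylim tendsto_const_nhds
    (tendsto_const_nhds.dist hylim) tendsto_const_nhds
    ((tendsto_const_nhds.dist hylim).sub_const s) ?_
  filter_upwards [hper', hs'] with k h1 h2
  exact hz k ⟨h1, h2⟩

end Vale.Agent.P233.H616
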