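import Vale.Agent.P233.H616.Ode

/-!
# P233, part F: `f'' ≤ 1 - κ f` for `f = md κ ρ` gives `Cmp κ`; hinge form
-/

open MeasureTheory Filter Topology Real Set
open scoped Interval

namespace Vale.Agent.P233.H616

/-- from a.e. a, a.e. b to all points of differentiability -/
theorem ineq_pointwise {L : ℝ} {f g φ : ℝ → ℝ}
    (hg : Integrable g) (hφ : Continuous φ)
    (hdiff : ∀ a b, f b - f a = ∫ r in a..b, g r)
    (hineq : ∀ᵐ a, ∀ᵐ b, 0 < a → a < b → b < L → g b - g a ≤ ∫ r in a..b, φ r)
    {a b : ℝ} (h0 : 0 < a) (hab : a < b) (hbL : b < L)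
    (ha : HasDerivAt f (g a) a) (hb : HasDerivAt f (g b) b) :
    g b - g a ≤ ∫ r in a..b, φ r := by
  obtain ⟨C, hC⟩ : ∃ C, ∀ x ∈ Icc 0 L, |φ x| ≤ C := by
    obtain ⟨C, hC⟩ := (isCompact_Icc (a := (0 : ℝ)) (b := L)).exists_bound_of_continuousOn
      hφ.continuousOn
    exact ⟨C, fun x hx => hC x hx⟩
  have hC0 : 0 ≤ C := (abs_nonneg _).trans (hC a ⟨h0.le, (hab.trans hbL).le⟩)
  have main : ∀ h : ℝ, 0 < h → h < b - a → b + h ≤ L →
      (f (b + h) - f b) / h - (f (a + h) - f a) / h ≤ (∫ r in a..b, φ r) + 2 * C * h := by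
    intro h hh hhab hhL
    have e1 : ∀ᵐ a', a' ∈ Ioo a (a + h) → ∀ᵐ b', b' ∈ Ioo b (b + h) →
        g b' - g a' ≤ (∫ r in a..b, φ r) + 2 * C * h := by
      filter_upwards [hineq] with a' ha' haI
      filter_upwards [ha'] with b' hb' hbI
      have h1 := hb' (h0.trans haI.1) (by linarith [haI.2, hbI.1]) (by linarith [hbI.2])
      have h2 : (∫ r in a'..b', φ r) = (∫ r in a..b, φ r) + (∫ r in b..b', φ r)
          - ∫ r in a..a', φ r := by
        have i := fun x y => hφ.intervalIntegrable (μ := volume) x y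
        rw [intervalIntegral.integral_add_adjacent_intervals (i _ _) (i _ _),
          ← intervalIntegral.integral_add_adjacent_intervals (i a a') (i a' b')]
        ring
      have h3 : |∫ r in b..b', φ r| ≤ C * |b' - b| := by
        rw [← Real.norm_eq_abs (∫ r in b..b', φ r)]
        refine intervalIntegral.norm_integral_le_of_norm_le_const fun x hx => ?_
        rw [uIoc_of_le hbI.1.le] at hx
        exact hC x ⟨by linarith [hx.1], by linarith [hx.2, hbI.2]⟩
      have h4 : |∫ r in a..a', φ r| ≤ C * |a' - a| := by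
        rw [← Real.norm_eq_abs (∫ r in a..a', φ r)]
        refine intervalIntegral.norm_integral_le_of_norm_le_const fun x hx => ?_
        rw [uIoc_of_le haI.1.le] at hx
        exact hC x ⟨by linarith [hx.1], by linarith [hx.2, haI.2]⟩
      have h5 : |b' - b| ≤ h := by
        rw [abs_of_nonneg (by linarith [hbI.1])]; linarith [hbI.2]
      have h6 : |a' - a| ≤ h := by
        rw [abs_of_nonneg (by linarith [haI.1])]; linarith [haI.2]
      have h7 := mul_le_mul_of_nonneg_left h5 hC0
      have h8 := mul_le_mul_of_nonneg_left h6 hC0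
      have h9 := le_abs_self (∫ r in b..b', φ r)
      have h10 := neg_abs_le (∫ r in a..a', φ r)
      rw [h2] at h1
      linarith
    obtain ⟨J, hJ⟩ : ∃ J, J = (∫ r in a..b, φ r) + 2 * C * h := ⟨_, rfl⟩
    rw [← hJ] at e1 ⊢
    have ig := fun x y => hg.intervalIntegrable (a := x) (b := y)
    have e2 : ∀ᵐ a', a' ∈ Ioo a (a + h) → f (b + h) - f b ≤ h * J + h * g a' := by
      filter_upwards [e1] with a' ha' haI
      have h1 : ∫ r in b..(b + h), g r ≤ ∫ r in b..(b + h), (J + g a') := by
        refine intervalIntegral.integral_mono_ae_restrict (by linarith) (ig _ _)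
          intervalIntegrable_const ?_
        rw [EventuallyLE, ae_restrict_iff' measurableSet_Icc]
        filter_upwards [ha' haI, Measure.ae_ne volume b, Measure.ae_ne volume (b + h)]
          with b' hb' n1 n2 hbI
        have := hb' ⟨lt_of_le_of_ne hbI.1 (Ne.symm n1), lt_of_le_of_ne hbI.2 n2⟩
        linarith
      rw [← hdiff] at h1
      simp only [intervalIntegral.integral_const, smul_eq_mul, add_sub_cancel_left] at h1
      linarith
    have e3 : ∫ x in a..(a + h), (f (b + h) - f b) ≤ ∫ x in a..(a + h), (h * J + h * g x) := by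
      refine intervalIntegral.integral_mono_ae_restrict (by linarith) intervalIntegrable_const
        (intervalIntegrable_const.add ((ig _ _).const_mul _)) ?_
      rw [EventuallyLE, ae_restrict_iff' measurableSet_Icc]
      filter_upwards [e2, Measure.ae_ne volume a, Measure.ae_ne volume (a + h)]
        with a' ha' n1 n2 haI
      exact ha' ⟨lt_of_le_of_ne haI.1 (Ne.symm n1), lt_of_le_of_ne haI.2 n2⟩
    rw [intervalIntegral.integral_add intervalIntegrable_const ((ig _ _).const_mul _),
      intervalIntegral.integral_const_mul h g, ← hdiff] at e3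
    simp only [intervalIntegral.integral_const, smul_eq_mul, add_sub_cancel_left] at e3
    have e4 : f (b + h) - f b ≤ h * J + (f (a + h) - f a) := by
      have : h * (f (b + h) - f b) ≤ h * (h * J + (f (a + h) - f a)) := by linarith
      exact le_of_mul_le_mul_left this hh
    rw [← sub_div, div_le_iff₀ hh]
    linarith
  have t1 : Tendsto (fun h => (f (b + h) - f b) / h - (f (a + h) - f a) / h) (𝓝[>] 0)
      (𝓝 (g b - g a)) := by
    have h1 := (hb.tendsto_slope_zero_right).sub (ha.tendsto_slope_zero_right)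
    refine h1.congr fun r => ?_
    simp [div_eq_inv_mul]
  have t2 : Tendsto (fun h => (∫ r in a..b, φ r) + 2 * C * h) (𝓝[>] 0)
      (𝓝 (∫ r in a..b, φ r)) := by
    have : Tendsto (fun h : ℝ => (∫ r in a..b, φ r) + 2 * C * h) (𝓝 0)
        (𝓝 ((∫ r in a..b, φ r) + 2 * C * 0)) := by
      exact (continuous_const.add (continuous_const.mul continuous_id)).tendsto 0
    simp only [mul_zero, add_zero] at this
    exact this.mono_left nhdsWithin_le_nhds
  refine le_of_tendsto_of_tendsto t1 t2 ?_
  have hpos : (0 : ℝ) < min (b - a) (L - b) := lt_min (by linarith) (by linarith)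
  filter_upwards [Ioo_mem_nhdsGT hpos] with h hh
  exact main h hh.1 (hh.2.trans_le (min_le_left _ _)) (by
    have := hh.2.trans_le (min_le_right _ _); linarith)

/-- two-point comparison at a.e. point -/
theorem twopoint_ae {A K L : ℝ} {f g : ℝ → ℝ}
    (hg : Integrable g)
    (hfg : ∀ t, f t = f 0 + ∫ r in (0 : ℝ)..t, g r)
    (hineq : ∀ᵐ a, ∀ᵐ b, 0 < a → a < b → b < L → g b - g a ≤ ∫ r in a..b, (A - K * f r))
    (hK : 0 < K → √K * L ≤ π) :
    ∀ᵐ s, s ∈ Ioo 0 L → f L * sn K s + f 0 * sn K (L - s)
      ≤ f s * sn K L + A * (md K (L - s) * sn K s + md K s * sn K (L - s)) := by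
  have hd : ∀ᵐ s, HasDerivAt f (g s) s := by
    filter_upwards [LocallyIntegrable.ae_hasDerivAt_integral hg.locallyIntegrable] with s hs
    have h := (hs 0).const_add (f 0)
    have e : f = fun t => f 0 + ∫ r in (0 : ℝ)..t, g r := by ext t; exact hfg t
    rw [e]
    simpa using h
  have cf : Continuous f := by
    have : f = fun t => f 0 + ∫ r in (0 : ℝ)..t, g r := by ext t; exact hfg t
    rw [this]
    exact continuous_const.add
      (intervalIntegral.continuous_primitive (fun a b => hg.intervalIntegrable) 0)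
  have hdiff : ∀ a b, f b - f a = ∫ r in a..b, g r := by
    intro a b
    rw [hfg b, hfg a, ← intervalIntegral.integral_interval_sub_left
      (hg.intervalIntegrable (a := 0) (b := b)) (hg.intervalIntegrable (a := 0) (b := a))]
    ring
  have hpt : ∀ a b, 0 < a → a < b → b < L → HasDerivAt f (g a) a → HasDerivAt f (g b) b →
      g b - g a ≤ ∫ r in a..b, (A - K * f r) := fun a b h0 hab hbL ha hb =>
    ineq_pointwise hg (continuous_const.sub (continuous_const.mul cf)) hdiff hineq h0 hab hbL ha hb
  filter_upwards [hd] with s hs hsI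
  have hs0 : 0 < s := hsI.1
  have hsL : s < L := hsI.2
  have mp : Measure.QuasiMeasurePreserving (fun x : ℝ => s + x) volume volume :=
    (measurePreserving_add_left volume s).quasiMeasurePreserving
  have mm : Measure.QuasiMeasurePreserving (fun x : ℝ => s - x) volume volume :=
    (Measure.measurePreserving_sub_left volume s).quasiMeasurePreserving
  -- forward
  have h1 : f L ≤ f s * cs K (L - s) + g s * sn K (L - s) + A * md K (L - s) := by
    have h := ode_comparison (A := A) (K := K) (L := L - s) (m := g s)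
      (f := fun r => f (s + r)) (g := fun r => g (s + r)) ?_ ?_ ?_ ?_ ?_ (t := L - s)
      (by linarith) le_rfl
    · simpa using h
    · exact (hg.comp_add_left s).intervalIntegrable
    · intro t ht
      have := hdiff s (s + t)
      simp only [add_zero]
      rw [intervalIntegral.integral_comp_add_left (fun r => g r) s]
      simp only [add_zero]
      linarith
    · filter_upwards [mp.ae hd] with a ha
      filter_upwards [mp.ae hd] with b hb h0 hab hbL
      have := hpt (s + a) (s + b) (by linarith) (by linarith) (by linarith) ha hb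
      rw [← intervalIntegral.integral_comp_add_left (fun r => A - K * f r) s] at this
      exact this
    · have h2 := hs.tendsto_slope_zero_right
      refine h2.congr fun r => ?_
      simp [div_eq_inv_mul]
    · intro h0
      exact le_trans (mul_le_mul_of_nonneg_left (by linarith) (Real.sqrt_nonneg K)) (hK h0)
  -- backward
  have h2 : f 0 ≤ f s * cs K s - g s * sn K s + A * md K s := by
    have h := ode_comparison (A := A) (K := K) (L := s) (m := -g s)
      (f := fun r => f (s - r)) (g := fun r => -g (s - r)) ?_ ?_ ?_ ?_ ?_ (t := s)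
      (by linarith) le_rfl
    · have h' : f 0 ≤ f s * cs K s + -g s * sn K s + A * md K s := by simpa using h
      linarith
    · exact (hg.comp_sub_left s).neg.intervalIntegrable
    · intro t ht
      have := hdiff (s - t) s
      simp only [sub_zero]
      rw [intervalIntegral.integral_neg, intervalIntegral.integral_comp_sub_left (fun r => g r) s]
      simp only [sub_zero]
      linarith
    · filter_upwards [mm.ae hd] with a ha
      filter_upwards [mm.ae hd] with b hb h0 hab hbL
      have := hpt (s - b) (s - a) (by linarith) (by linarith) (by linarith) hb ha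
      have e : ∫ r in a..b, (A - K * f (s - r)) = ∫ r in (s - b)..(s - a), (A - K * f r) :=
        intervalIntegral.integral_comp_sub_left (fun r => A - K * f r) s
      rw [e]
      linarith
    · have h2 : HasDerivAt (fun r => f (s - r)) (-g s) 0 := by
        have h3 : HasDerivAt (fun r : ℝ => s - r) (-1) 0 := by
          simpa using (hasDerivAt_id (0 : ℝ)).const_sub s
        have h4 : HasDerivAt f (g s) (s - 0) := by simpa using hs
        have h5 := h4.comp (0 : ℝ) h3
        rw [mul_neg_one] at h5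
        exact h5
      have h3 := h2.tendsto_slope_zero_right
      refine h3.congr fun r => ?_
      simp [div_eq_inv_mul]
    · intro h0
      exact le_trans (mul_le_mul_of_nonneg_left (by linarith) (Real.sqrt_nonneg K)) (hK h0)
  have hsn1 : 0 ≤ sn K s := sn_nonneg hs0.le fun h =>
    le_trans (mul_le_mul_of_nonneg_left hsL.le (Real.sqrt_nonneg K)) (hK h)
  have hsn2 : 0 ≤ sn K (L - s) := sn_nonneg (by linarith) fun h =>
    le_trans (mul_le_mul_of_nonneg_left (by linarith) (Real.sqrt_nonneg K)) (hK h)
  have h3 := mul_le_mul_of_nonneg_right h1 hsn1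
  have h4 := mul_le_mul_of_nonneg_right h2 hsn2
  have h5 : sn K L = sn K s * cs K (L - s) + cs K s * sn K (L - s) := by
    rw [← sn_add]; ring_nf
  rw [h5]
  linarith

/-- **Two-point comparison** for `f'' ≤ A - K f` on `(0, L)`. -/
theorem twopoint {A K L : ℝ} {f g : ℝ → ℝ} (hL : 0 < L)
    (hg : IntervalIntegrable g volume 0 L)
    (hfg : ∀ t ∈ Icc 0 L, f t = f 0 + ∫ r in (0 : ℝ)..t, g r)
    (hineq : ∀ᵐ a, ∀ᵐ b, 0 < a → a < b → b < L → g b - g a ≤ ∫ r in a..b, (A - K * f r))
    (hK : 0 < K → √K * L ≤ π) {s : ℝ} (hs : s ∈ Icc 0 L) :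
    f L * sn K s + f 0 * sn K (L - s)
      ≤ f s * sn K L + A * (md K (L - s) * sn K s + md K s * sn K (L - s)) := by
  obtain ⟨g1, hg1⟩ : ∃ g1 : ℝ → ℝ, g1 = (Ioo 0 L).indicator g := ⟨_, rfl⟩
  have ig : IntegrableOn g (Ioo 0 L) :=
    ((intervalIntegrable_iff_integrableOn_Ioo_of_le hL.le).1 hg)
  have ig1 : Integrable g1 := by rw [hg1]; exact (integrable_indicator_iff measurableSet_Ioo).2 ig
  have h0 : ∀ s ∈ Icc (0 : ℝ) L, ∫ r in (0 : ℝ)..s, g1 r = ∫ r in (0 : ℝ)..s, g r := by
    intro s hs
    rw [intervalIntegral.integral_of_le hs.1, intervalIntegral.integral_of_le hs.1,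
      integral_Ioc_eq_integral_Ioo, integral_Ioc_eq_integral_Ioo]
    refine setIntegral_congr_fun measurableSet_Ioo fun r hr => ?_
    rw [hg1, indicator_of_mem (show r ∈ Ioo 0 L from ⟨hr.1, hr.2.trans_le hs.2⟩)]
  obtain ⟨f1, hf1⟩ : ∃ f1 : ℝ → ℝ, f1 = fun t => f 0 + ∫ r in (0 : ℝ)..t, g1 r := ⟨_, rfl⟩
  have hff : ∀ s ∈ Icc (0 : ℝ) L, f1 s = f s := fun s hs => by
    rw [hf1, hfg s hs]; simp only; rw [h0 s hs]
  have f10 : f1 0 = f 0 := hff 0 ⟨le_rfl, hL.le⟩
  have f1L : f1 L = f L := hff L ⟨hL.le, le_rfl⟩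
  have cf : Continuous f1 := by
    rw [hf1]
    exact continuous_const.add
      (intervalIntegral.continuous_primitive (fun a b => ig1.intervalIntegrable) 0)
  have key := twopoint_ae (A := A) (K := K) (L := L) (f := f1) (g := g1) ig1
    (fun t => by rw [f10, hf1]) ?_ hK
  · -- continuity
    obtain ⟨Φ, hΦ⟩ : ∃ Φ : ℝ → ℝ, Φ = fun s => f1 s * sn K L
      + A * (md K (L - s) * sn K s + md K s * sn K (L - s))
      - (f1 L * sn K s + f1 0 * sn K (L - s)) := ⟨_, rfl⟩
    have c1 : Continuous fun s => sn K (L - s) :=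
      (continuous_sn K).comp (continuous_const.sub continuous_id)
    have c2 : Continuous fun s => md K (L - s) :=
      (continuous_md K).comp (continuous_const.sub continuous_id)
    have cΦ : Continuous Φ := by
      rw [hΦ]
      exact ((cf.mul continuous_const).add (continuous_const.mul
        ((c2.mul (continuous_sn K)).add ((continuous_md K).mul c1)))).sub
        ((continuous_const.mul (continuous_sn K)).add (continuous_const.mul c1))
    have hcl : Icc 0 L ⊆ {s | 0 ≤ Φ s} := by
      have hclosed : IsClosed {s | 0 ≤ Φ s} := isClosed_le continuous_const cΦ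
      rw [← closure_Ioo hL.ne, hclosed.closure_subset_iff]
      intro s hs
      by_contra hneg
      have hneg : Φ s < 0 := by simpa using hneg
      have hopen : IsOpen ({s | Φ s < 0} ∩ Ioo 0 L) :=
        (isOpen_lt cΦ continuous_const).inter isOpen_Ioo
      have hpos : 0 < volume ({s | Φ s < 0} ∩ Ioo 0 L) :=
        hopen.measure_pos volume ⟨s, hneg, hs⟩
      have hzero : volume ({s | Φ s < 0} ∩ Ioo 0 L) = 0 := by
        refine measure_mono_null ?_ (ae_iff.1 key)
        intro r hr
        simp only [mem_ofPred_eq, not_forall, not_le]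
        refine ⟨hr.2, ?_⟩
        have := hr.1
        rw [hΦ] at this
        simp only [mem_ofPred_eq] at this
        linarith
      exact hpos.ne' hzero
    have := hcl hs
    rw [hΦ] at this
    simp only [mem_ofPred_eq] at this
    rw [hff s hs, f10, f1L] at this
    linarith
  · filter_upwards [hineq] with a ha
    filter_upwards [ha] with b hb h0 hab hbL
    have h1 := hb h0 hab hbL
    rw [hg1, indicator_of_mem (show b ∈ Ioo 0 L from ⟨h0.trans hab, hbL⟩),
      indicator_of_mem (show a ∈ Ioo 0 L from ⟨h0, hab.trans hbL⟩)]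
    refine h1.trans_eq (intervalIntegral.integral_congr fun r hr => ?_)
    rw [uIcc_of_le hab.le] at hr
    show A - K * f r = A - K * f1 r
    rw [hff r ⟨h0.le.trans hr.1, hr.2.trans hbL.le⟩]

/-- `sn (s+t) cs r ≤ ...`: the two-point comparison for `f = md κ ρ` is `Cmp κ`. -/
theorem cmp_of_twopoint {κ a b s t r : ℝ}
    (h : md κ b * sn κ s + md κ a * sn κ t
      ≤ md κ r * sn κ (s + t) + (md κ t * sn κ s + md κ s * sn κ t)) :
    T.Cmp κ a b s t r := by
  refine ⟨fun h0 => ?_, fun h0 => ?_, fun h0 => ?_⟩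
  · subst h0
    simp only [md_zero', sn_zero'] at h
    nlinarith
  · have e := sn_add κ s t
    simp only [cs_eq] at e
    have h1 : sn κ (s + t) * cs κ r ≤ sn κ t * cs κ a + sn κ s * cs κ b := by
      simp only [cs_eq]
      have := mul_le_mul_of_nonneg_left h h0.le
      linarith [e]
    simp only [sn_pos' h0, cs_pos h0] at h1
    have hs : 0 < √κ := Real.sqrt_pos.2 h0
    rw [div_mul_eq_mul_div, div_mul_eq_mul_div, div_mul_eq_mul_div, ← add_div,
      div_le_div_iff_of_pos_right hs] at h1
    exact h1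
  · have e := sn_add κ s t
    simp only [cs_eq] at e
    have h1 : sn κ t * cs κ a + sn κ s * cs κ b ≤ sn κ (s + t) * cs κ r := by
      simp only [cs_eq]
      have := mul_le_mul_of_nonpos_left h h0.le
      linarith [e]
    simp only [sn_neg' h0, cs_neg' h0] at h1
    have hs : 0 < √(-κ) := Real.sqrt_pos.2 (by linarith)
    rw [div_mul_eq_mul_div, div_mul_eq_mul_div, div_mul_eq_mul_div, ← add_div,
      div_le_div_iff_of_pos_right hs] at h1
    exact h1

/-- **`Cmp` from the differential inequality**: `ρ` is the distance to `p` along a unit speed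
geodesic of length `L`, `g` the derivative of `md κ ∘ ρ`. -/
theorem cmp_of_ode {κ L : ℝ} {ρ g : ℝ → ℝ} (hL : 0 < L)
    (hg : IntervalIntegrable g volume 0 L)
    (hfg : ∀ t ∈ Icc 0 L, md κ (ρ t) = md κ (ρ 0) + ∫ r in (0 : ℝ)..t, g r)
    (hineq : ∀ᵐ a, ∀ᵐ b, 0 < a → a < b → b < L →
      g b - g a ≤ ∫ r in a..b, (1 - κ * md κ (ρ r)))
    (hK : 0 < κ → √κ * L ≤ π) {s : ℝ} (hs : s ∈ Icc 0 L) :
    T.Cmp κ (ρ 0) (ρ L) s (L - s) (ρ s) := by
  have := twopoint (A := 1) (K := κ) (f := fun t => md κ (ρ t)) hL hg hfg hineq hK hs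
  refine cmp_of_twopoint ?_
  have e : s + (L - s) = L := by ring
  rw [e]
  simpa using this

/-- **Hinge from the differential inequality**: the initial slope of `md κ ∘ ρ` is
`- sn κ a * c`. -/
theorem hinge_of_ode {κ L c : ℝ} {ρ g : ℝ → ℝ} (hL : 0 < L)
    (hg : IntervalIntegrable g volume 0 L)
    (hfg : ∀ t ∈ Icc 0 L, md κ (ρ t) = md κ (ρ 0) + ∫ r in (0 : ℝ)..t, g r)
    (hineq : ∀ᵐ a, ∀ᵐ b, 0 < a → a < b → b < L →
      g b - g a ≤ ∫ r in a..b, (1 - κ * md κ (ρ r)))
    (hm : Tendsto (fun s => (md κ (ρ s) - md κ (ρ 0)) / s) (𝓝[>] 0) (𝓝 (-(sn κ (ρ 0) * c))))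
    (hK : 0 < κ → √κ * L ≤ π) :
    md κ (ρ L) ≤ md κ (ρ 0 - L) + sn κ (ρ 0) * sn κ L * (1 - c) := by
  have := ode_comparison (A := 1) (K := κ) (f := fun t => md κ (ρ t)) hg hfg hineq hm hK
    (t := L) hL.le le_rfl
  rw [md_sub]
  simp only [cs_eq] at this
  linarith

end Vale.Agent.P233.H616
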